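import Mathlib
import Vale.Agent.Lib.P072.GFinal

/-!
The permanence conjecture for weakly reversible mass-action systems, in full generality:
any number of species, any number of linkage classes, any dimension of the stoichiometric subspace.
-/

namespace Vale.Agent.Results.P072.A_conjecture

open Vale.Agent.Lib.P072

/-- Every weakly reversible mass-action system with positive rates is permanent on every positive
stoichiometric class. -/
theorem result {d : ℕ} (R : Finset (Cplx d × Cplx d)) (hWR : WeaklyReversible R)
    (k : Cplx d × Cplx d → ℝ) (hk : ∀ e ∈ R, 0 < k e) (c : Fin d → ℝ) (hc : ∀ i, 0 < c i) :
    PermanentOn R k c :=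
  permanent_general hWR hk hc

end Vale.Agent.Results.P072.A_conjecture
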