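import Mathlib
import Vale.Agent.Lib.P072.GFinal

/-!
Permanence for rates varying in time within `[ε, 1 / ε]`, with a compact absorbing set that is
uniform in the rates, for all weakly reversible networks.
-/

open Set

namespace Vale.Agent.Results.P072.A_general_timedep

open Vale.Agent.Lib.P072

/-- For rates depending on time with values in `[ε, 1 / ε]`: every solution on `[0, T]` starting at
`x₀` in the class stays in a compact subset of the class depending only on the network, `ε`, `c`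
and `x₀`; and one compact subset of the class absorbs all solutions on `[0, ∞)`. -/
theorem result {d : ℕ} (R : Finset (Cplx d × Cplx d)) (hWR : WeaklyReversible R) (ε : ℝ)
    (hε : 0 < ε) (c : Fin d → ℝ) (hc : ∀ i, 0 < c i) :
    (∀ x₀ ∈ posClass R c, ∃ K₀ : Set (Fin d → ℝ), IsCompact K₀ ∧ K₀ ⊆ posClass R c ∧
      ∀ (k : ℝ → Cplx d × Cplx d → ℝ), (∀ t, ∀ e ∈ R, ε ≤ k t e ∧ k t e ≤ 1 / ε) →
      ∀ (T : ℝ) (x : ℝ → Fin d → ℝ), x 0 = x₀ →
        (∀ t ∈ Icc 0 T, HasDerivWithinAt x (massAction R (k t) (x t)) (Icc 0 T) t) →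
        ∀ t ∈ Icc 0 T, x t ∈ K₀) ∧
    ∃ K : Set (Fin d → ℝ), IsCompact K ∧ K ⊆ posClass R c ∧
      ∀ (k : ℝ → Cplx d × Cplx d → ℝ), (∀ t, ∀ e ∈ R, ε ≤ k t e ∧ k t e ≤ 1 / ε) →
      ∀ x : ℝ → Fin d → ℝ, x 0 ∈ posClass R c →
        (∀ t, 0 ≤ t → HasDerivWithinAt x (massAction R (k t) (x t)) (Ici 0) t) →
        ∃ T₀, ∀ t, T₀ ≤ t → x t ∈ K :=
  permanent_timedep_general hWR hε hc

end Vale.Agent.Results.P072.A_general_timedep
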