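import Mathlib
import Vale.Agent.Lib.P072.Main

/-!
The permanence conjecture for weakly reversible mass-action systems whose stoichiometric subspace
has dimension at most two (any number of species, any number of linkage classes).
-/

namespace Vale.Agent.Results.P072.A_main

open Vale.Agent.Lib.P072

/-- Every weakly reversible mass-action system with positive rates and `dim S ≤ 2` is permanent on
every positive stoichiometric class. -/
theorem result {d : ℕ} (R : Finset (Cplx d × Cplx d)) (hWR : WeaklyReversible R)
    (hdim : Module.finrank ℝ (stoichSubspace R) ≤ 2) (k : Cplx d × Cplx d → ℝ)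
    (hk : ∀ e ∈ R, 0 < k e) (c : Fin d → ℝ) (hc : ∀ i, 0 < c i) : PermanentOn R k c :=
  permanent_main hWR hdim hk hc

end Vale.Agent.Results.P072.A_main
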