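import Mathlib
import Vale.Agent.Lib.P072.Bounded

/-!
Boundedness of positive solutions for weakly reversible mass-action systems whose stoichiometric
subspace has dimension at most two (any number of species, any number of linkage classes),
also for rates varying in time within `[ε, 1 / ε]`.
-/

open Set

namespace Vale.Agent.Results.P072.B_bounded

open Vale.Agent.Lib.P072

/-- For a weakly reversible network with `dim S ≤ 2`, every positive solution starting at `x₀`
stays below a bound `U` that depends only on the network, `ε` and `x₀`, for all rates in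
`[ε, 1 / ε]`, possibly depending on time. -/
theorem result {d : ℕ} (R : Finset (Cplx d × Cplx d)) (hWR : WeaklyReversible R)
    (hdim : Module.finrank ℝ (stoichSubspace R) ≤ 2) (ε : ℝ) (hε : 0 < ε)
    (x₀ : Fin d → ℝ) (hx₀ : ∀ i, 0 < x₀ i) :
    ∃ U : ℝ, ∀ (k : ℝ → Cplx d × Cplx d → ℝ), (∀ t, ∀ e ∈ R, ε ≤ k t e ∧ k t e ≤ 1 / ε) →
      ∀ (T : ℝ) (x : ℝ → Fin d → ℝ), x 0 = x₀ → 0 ≤ T →
        ContinuousOn x (Icc 0 T) →
        (∀ t ∈ Ico 0 T, HasDerivWithinAt x (massAction R (k t) (x t)) (Ici t) t) →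
        (∀ t ∈ Icc 0 T, ∀ i, 0 < x t i) →
        ∀ t ∈ Icc 0 T, ∀ i, x t i ≤ U :=
  bounded_main hWR hdim hε hx₀

end Vale.Agent.Results.P072.B_bounded
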